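import Vale.Agent.P327.Final

/-- Rigidity of the Turing degrees: every order automorphism is the identity. -/
theorem Vale.Agent.Results.P327.A_rigidity.result
    (π : Vale.Agent.P327.Deg → Vale.Agent.P327.Deg) (hbij : Function.Bijective π)
    (hle : ∀ a b : Vale.Agent.P327.Deg, a ≤ b ↔ π a ≤ π b) (a : Vale.Agent.P327.Deg) :
    π a = a :=
  Vale.Agent.P327.rigidity π hbij hle a
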